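import Vale.Agent.P034.Defs
import Vale.Agent.P034.Thresholds

namespace Vale.Agent.Results.P034.TalagrandRounding

open Vale.Agent.P034

/-- For every nonempty proper increasing family `F` of subsets of a finite set `X`, the
expectation threshold and the fractional expectation threshold are attained maxima, and the
fractional one is at most `2 ^ 18` times the integral one. -/
theorem result {X : Type*} [Fintype X] [DecidableEq X] (F : Finset (Finset X))
    (hF : IsProperIncreasing F) :
    IsGreatest {p : ℝ | 0 ≤ p ∧ p ≤ 1 ∧ IsSmall p F} (expectationThreshold F) ∧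
    IsGreatest {p : ℝ | 0 ≤ p ∧ p ≤ 1 ∧ IsFractionallySmall p F}
      (fractionalExpectationThreshold F) ∧
    fractionalExpectationThreshold F ≤ 2 ^ 18 * expectationThreshold F := by
  have hq := isGreatest_small hF.2.1
  have hf := isGreatest_frac hF.2.1
  refine ⟨hq, hf, ?_⟩
  have hq0 := hq.1.1
  rcases eq_or_lt_of_le hf.1.1 with h0 | hpos
  · rw [← h0]
    positivity
  · have hs := isSmall_of_frac hpos hf.1.2.2
    have h1 : fractionalExpectationThreshold F / 2 ^ 18 ≤ 1 := by
      have := hf.1.2.1
      rw [div_le_one (by positivity)]
      linarith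
    have hle := hq.2 ⟨by positivity, h1, hs⟩
    rw [div_le_iff₀ (by positivity)] at hle
    linarith

end Vale.Agent.Results.P034.TalagrandRounding
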