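import Vale.Agent.P034.Thresholds

namespace Vale.Agent.Results.P034.UniversalConstant

open Vale.Agent.P034

/-- There is a universal constant `K` such that for every finite nonempty `X` and every nonempty
increasing family `F` of subsets of `X` without the empty set, the maximum `q` of the `p` at
which some cover of `F` costs at most `1/2` and the maximum `r` of the `p` at which some
fractional cover of `F` costs at most `1/2` both exist, are positive, and satisfy
`r / q ≤ K`. -/
theorem result : ∃ K : ℝ, ∀ (X : Type*) [Fintype X] [Nonempty X] (F : Set (Finset X)),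
    F.Nonempty → ∅ ∉ F → IsUpperSet F →
    ∃ q r : ℝ,
      IsGreatest {p : ℝ | p ∈ Set.Icc 0 1 ∧ ∃ G : Finset (Finset X),
        (∀ H ∈ F, ∃ S ∈ G, S ⊆ H) ∧ ∑ S ∈ G, p ^ S.card ≤ 1 / 2} q ∧
      IsGreatest {p : ℝ | p ∈ Set.Icc 0 1 ∧ ∃ g : Finset X → ℝ,
        (∀ S, g S ∈ Set.Icc 0 1) ∧ (∀ H ∈ F, 1 ≤ ∑ S ∈ H.powerset, g S) ∧
          ∑ S, g S * p ^ S.card ≤ 1 / 2} r ∧
      0 < q ∧ q ≤ r ∧ r / q ≤ K := by
  classical
  refine ⟨2 ^ 18, ?_⟩
  intro X _ _ F hne hemp hup
  set F' : Finset (Finset X) := Finset.univ.filter (fun H => H ∈ F) with hF'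
  have hmem : ∀ H, H ∈ F' ↔ H ∈ F := by
    intro H
    simp [hF']
  have hemp' : ∅ ∉ F' := by
    rw [hmem]
    exact hemp
  have hq := isGreatest_small hemp'
  have hf := isGreatest_frac hemp'
  have hqle : expectationThreshold F' ≤ fractionalExpectationThreshold F' :=
    hf.2 ⟨hq.1.1, hq.1.2.1, isSmall_frac hq.1.2.2⟩
  have hcard : (1 : ℝ) ≤ Fintype.card X := by
    exact_mod_cast Fintype.card_pos
  have hpos : 0 < expectationThreshold F' := by
    have hin : (1 / (2 * (Fintype.card X : ℝ))) ∈ {p : ℝ | 0 ≤ p ∧ p ≤ 1 ∧ IsSmall p F'} := by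
      refine ⟨by positivity, ?_, ?_⟩
      · rw [div_le_one (by positivity)]
        linarith
      · refine ⟨Finset.univ.image (fun x : X => ({x} : Finset X)), ?_, ?_⟩
        · intro H hH
          have hHne : H.Nonempty := by
            rw [Finset.nonempty_iff_ne_empty]
            rintro rfl
            exact hemp' hH
          obtain ⟨x, hx⟩ := hHne
          exact ⟨{x}, Finset.mem_image.mpr ⟨x, Finset.mem_univ _, rfl⟩,
            Finset.singleton_subset_iff.mpr hx⟩
        · unfold coverCost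
          rw [Finset.sum_image (fun x _ y _ h => Finset.singleton_injective h)]
          simp only [Finset.card_singleton, pow_one, Finset.sum_const, Finset.card_univ,
            nsmul_eq_mul]
          apply le_of_eq
          field_simp
    have h1 := hq.2 hin
    refine lt_of_lt_of_le ?_ h1
    positivity
  have hs := isSmall_of_frac (lt_of_lt_of_le hpos hqle) hf.1.2.2
  have hle := hq.2 ⟨by have := lt_of_lt_of_le hpos hqle; positivity, by
      have := hf.1.2.1
      rw [div_le_one (by positivity)]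
      linarith, hs⟩
  refine ⟨expectationThreshold F', fractionalExpectationThreshold F', ?_, ?_, hpos, hqle, ?_⟩
  · have heq : {p : ℝ | p ∈ Set.Icc 0 1 ∧ ∃ G : Finset (Finset X),
        (∀ H ∈ F, ∃ S ∈ G, S ⊆ H) ∧ ∑ S ∈ G, p ^ S.card ≤ 1 / 2}
        = {p : ℝ | 0 ≤ p ∧ p ≤ 1 ∧ IsSmall p F'} := by
      ext p
      simp only [Set.mem_ofPred_eq, Set.mem_Icc, IsSmall, Covers, coverCost, hmem, and_assoc]
    rw [heq]
    exact hq
  · have heq : {p : ℝ | p ∈ Set.Icc 0 1 ∧ ∃ g : Finset X → ℝ,
        (∀ S, g S ∈ Set.Icc 0 1) ∧ (∀ H ∈ F, 1 ≤ ∑ S ∈ H.powerset, g S) ∧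
          ∑ S, g S * p ^ S.card ≤ 1 / 2}
        = {p : ℝ | 0 ≤ p ∧ p ≤ 1 ∧ IsFractionallySmall p F'} := by
      ext p
      simp only [Set.mem_ofPred_eq, Set.mem_Icc, IsFractionallySmall, IsFractionalCover,
        fractionalCost, hmem, and_assoc]
    rw [heq]
    exact hf
  · rw [div_le_iff₀ hpos]
    rw [div_le_iff₀ (by positivity)] at hle
    linarith

end Vale.Agent.Results.P034.UniversalConstant
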